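import Mathlib

open Module

namespace Vale.Agent.Results.P002.AbelianPi1

/-- common eigenvector of a finite commuting family -/
lemma common_eigenvector : ∀ (n : ℕ) (V : Type) [AddCommGroup V] [Module ℂ V]
    [FiniteDimensional ℂ V] [Nontrivial V] (f : Fin n → End ℂ V)
    (_ : ∀ k l, Commute (f k) (f l)), ∃ v : V, v ≠ 0 ∧ ∃ μ : Fin n → ℂ, ∀ k, f k v = μ k • v := by
  intro n
  induction n with
  | zero =>
    intro V _ _ _ _ f _
    obtain ⟨v, hv⟩ := exists_ne (0 : V)
    exact ⟨v, hv, fun _ => 0, fun k => k.elim0⟩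
  | succ n ih =>
    intro V _ _ _ _ f hf
    obtain ⟨c, hc⟩ := End.exists_eigenvalue (f 0)
    set E := End.eigenspace (f 0) c with hE
    have hEne : E ≠ ⊥ := hc
    have : Nontrivial E := Submodule.nontrivial_iff_ne_bot.2 hEne
    have hmaps : ∀ k : Fin n, ∀ x ∈ E, f k.succ x ∈ E := by
      intro k x hx
      rw [hE, End.mem_eigenspace_iff] at hx ⊢
      have h1 : f 0 (f k.succ x) = f k.succ (f 0 x) := by
        have := (hf 0 k.succ).eq
        exact congrArg (fun T : End ℂ V => T x) this
      rw [h1, hx, map_smul]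
    obtain ⟨w, hw, μ, hμ⟩ := ih E (fun k => (f k.succ).restrict (hmaps k)) (by
      intro k l
      ext x
      have := (hf k.succ l.succ).eq
      exact congrArg (fun T : End ℂ V => T x.1) this)
    refine ⟨w.1, fun h => hw (Subtype.ext h), Fin.cons c μ, ?_⟩
    intro k
    refine Fin.cases ?_ (fun k => ?_) k
    · have h2 : w.1 ∈ End.eigenspace (f 0) c := w.2
      rw [End.mem_eigenspace_iff] at h2
      simpa using h2
    · have := congrArg Subtype.val (hμ k)
      simpa using this

/-- simultaneous lower-triangularisation of a finite commuting family -/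
lemma triangular_basis : ∀ (d : ℕ) (n : ℕ) (V : Type) [AddCommGroup V] [Module ℂ V]
    [FiniteDimensional ℂ V] (_ : finrank ℂ V = d) (f : Fin n → End ℂ V)
    (_ : ∀ k l, Commute (f k) (f l)),
    ∃ b : Basis (Fin d) ℂ V, ∀ k i j, i < j → b.repr (f k (b j)) i = 0 := by
  intro d
  induction d with
  | zero =>
    intro n V _ _ _ hd f _
    exact ⟨finBasisOfFinrankEq ℂ V hd, fun k i => i.elim0⟩
  | succ d ih =>
    intro n V _ _ _ hd f hf
    have : Nontrivial V := nontrivial_of_finrank_pos (R := ℂ) (by omega)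
    obtain ⟨φ, hφ, μ, hμ⟩ := common_eigenvector n (Dual ℂ V) (fun k => (f k).dualMap) (by
      intro k l
      ext ψ x
      have := (hf l k).eq
      have h2 := congrArg (fun T : End ℂ V => ψ (T x)) this
      simpa using h2)
    set H := LinearMap.ker φ with hH
    have hHd : finrank ℂ H = d := by
      have h3 : finrank ℂ H + 1 = finrank ℂ V := Dual.finrank_ker_add_one_of_ne_zero hφ
      omega
    have hmaps : ∀ k : Fin n, ∀ x ∈ H, f k x ∈ H := by
      intro k x hx
      rw [hH, LinearMap.mem_ker] at hx ⊢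
      have := congrArg (fun ψ : Dual ℂ V => ψ x) (hμ k)
      simp only [LinearMap.dualMap_apply, LinearMap.smul_apply, hx, smul_zero] at this
      exact this
    obtain ⟨b', hb'⟩ := ih n H hHd (fun k => (f k).restrict (hmaps k)) (by
      intro k l
      ext x
      have := (hf k l).eq
      exact congrArg (fun T : End ℂ V => T x.1) this)
    obtain ⟨y, hy⟩ : ∃ y, φ y ≠ 0 := by
      by_contra hcon
      exact hφ (LinearMap.ext (fun y => by
        by_contra hy
        exact hcon ⟨y, hy⟩))
    have hli : ∀ (c : ℂ), ∀ x ∈ H, c • y + x = 0 → c = 0 := by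
      intro c x hx hc
      rw [hH, LinearMap.mem_ker] at hx
      have := congrArg φ hc
      simp only [map_add, map_smul, hx, add_zero, map_zero, smul_eq_mul, mul_eq_zero] at this
      exact this.resolve_right hy
    have hsp : ∀ z : V, ∃ c : ℂ, z + c • y ∈ H := by
      intro z
      refine ⟨- (φ z / φ y), ?_⟩
      rw [hH, LinearMap.mem_ker]
      simp only [map_add, map_smul, smul_eq_mul]
      field_simp
      ring
    set b := Basis.mkFinCons y b' hli hsp with hb
    have hbsucc : ∀ j : Fin d, b j.succ = (b' j : V) := by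
      intro j
      rw [hb, Basis.coe_mkFinCons]
      simp
    refine ⟨b, ?_⟩
    intro k i j hij
    obtain ⟨j', rfl⟩ : ∃ j', j = Fin.succ j' := ⟨j.pred (by
      intro h; rw [h] at hij; exact absurd hij (Fin.not_lt_zero i)), by simp⟩
    -- expand f k (b' j') in the basis b'
    have hexp : f k (b j'.succ) = ∑ i' : Fin d, (b'.repr ((f k).restrict (hmaps k) (b' j')) i') • b i'.succ := by
      simp only [hbsucc]
      have h1 := b'.sum_repr ((f k).restrict (hmaps k) (b' j'))
      have h2 := congrArg Subtype.val h1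
      simp only [LinearMap.coe_restrict_apply] at h2
      rw [← h2, Submodule.coe_sum]
      simp only [Submodule.coe_smul]
    rw [hexp]
    simp only [map_sum, map_smul, Basis.repr_self, Finsupp.coe_finsetSum, Finsupp.coe_smul,
      Finset.sum_apply, Pi.smul_apply, smul_eq_mul]
    apply Finset.sum_eq_zero
    intro i' _
    by_cases hi : i = i'.succ
    · subst hi
      have : i' < j' := by simpa using hij
      rw [hb' k i' j' this]; simp
    · rw [Finsupp.single_apply, if_neg (fun h => hi h.symm)]; simp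

open Matrix

lemma exists_SL_conj {r : ℕ} (hr : 0 < r) (Q Q' : Matrix (Fin r) (Fin r) ℂ) (hQ : Q * Q' = 1) :
    ∃ h : Matrix.SpecialLinearGroup (Fin r) ℂ, ∀ A : Matrix (Fin r) (Fin r) ℂ,
      (h : Matrix (Fin r) (Fin r) ℂ) * A * ((h⁻¹ : Matrix.SpecialLinearGroup (Fin r) ℂ) :
        Matrix (Fin r) (Fin r) ℂ) = Q * A * Q' := by
  have hdet : Q.det * Q'.det = 1 := by rw [← det_mul, hQ, det_one]
  have hdet0 : Q.det ≠ 0 := fun h => by simp [h] at hdet
  obtain ⟨c, hc⟩ := IsAlgClosed.exists_pow_nat_eq Q.det hr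
  have hc0 : c ≠ 0 := by
    intro h
    rw [h, zero_pow hr.ne'] at hc
    exact hdet0 hc.symm
  have hdeth : (c⁻¹ • Q).det = 1 := by
    rw [det_smul, Fintype.card_fin, inv_pow, hc, inv_mul_cancel₀ hdet0]
  obtain ⟨h, h1⟩ : ∃ h : Matrix.SpecialLinearGroup (Fin r) ℂ,
      (h : Matrix (Fin r) (Fin r) ℂ) = c⁻¹ • Q := ⟨⟨_, hdeth⟩, rfl⟩
  refine ⟨h, fun A => ?_⟩
  have h2 : ((h⁻¹ : Matrix.SpecialLinearGroup (Fin r) ℂ) : Matrix (Fin r) (Fin r) ℂ) = c • Q' := by
    have e1 : ((h⁻¹ : Matrix.SpecialLinearGroup (Fin r) ℂ) : Matrix (Fin r) (Fin r) ℂ) *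
        (h : Matrix (Fin r) (Fin r) ℂ) = 1 :=
      congrArg (fun x : Matrix.SpecialLinearGroup (Fin r) ℂ => (x : Matrix (Fin r) (Fin r) ℂ))
        (inv_mul_cancel h)
    have e2 : (h : Matrix (Fin r) (Fin r) ℂ) * (c • Q') = 1 := by
      rw [h1, smul_mul_smul_comm, inv_mul_cancel₀ hc0, one_smul, hQ]
    calc ((h⁻¹ : Matrix.SpecialLinearGroup (Fin r) ℂ) : Matrix (Fin r) (Fin r) ℂ)
        = ((h⁻¹ : Matrix.SpecialLinearGroup (Fin r) ℂ) : Matrix (Fin r) (Fin r) ℂ) *
          ((h : Matrix (Fin r) (Fin r) ℂ) * (c • Q')) := by rw [e2, mul_one]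
      _ = c • Q' := by rw [← mul_assoc, e1, one_mul]
  rw [h1, h2]
  simp only [Matrix.smul_mul, Matrix.mul_smul, smul_smul]
  rw [mul_inv_cancel₀ hc0, one_smul]

lemma exists_SL_triangular {n r : ℕ} (hr : 0 < r) (g : Fin n → Matrix.SpecialLinearGroup (Fin r) ℂ)
    (hg : ∀ k l, Commute (g k) (g l)) :
    ∃ h : Matrix.SpecialLinearGroup (Fin r) ℂ, ∀ k i j, i < j →
      ((h * g k * h⁻¹ : Matrix.SpecialLinearGroup (Fin r) ℂ) : Matrix (Fin r) (Fin r) ℂ) i j = 0 := by
  obtain ⟨b, hb⟩ := triangular_basis r n (Fin r → ℂ) (finrank_fin_fun ℂ)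
    (fun k => Matrix.toLin' (g k : Matrix (Fin r) (Fin r) ℂ)) (by
      intro k l
      have h1 : (g k : Matrix (Fin r) (Fin r) ℂ) * (g l : Matrix (Fin r) (Fin r) ℂ) =
          (g l : Matrix (Fin r) (Fin r) ℂ) * (g k : Matrix (Fin r) (Fin r) ℂ) :=
        congrArg (fun x : Matrix.SpecialLinearGroup (Fin r) ℂ => (x : Matrix (Fin r) (Fin r) ℂ)) (hg k l).eq
      have h2 := congrArg Matrix.toLin' h1
      rw [Matrix.toLin'_mul, Matrix.toLin'_mul] at h2
      exact h2)
  obtain ⟨h, hh⟩ := exists_SL_conj hr (b.toMatrix (Pi.basisFun ℂ (Fin r)))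
    ((Pi.basisFun ℂ (Fin r)).toMatrix b) (Basis.toMatrix_mul_toMatrix_flip _ _)
  refine ⟨h, fun k i j hij => ?_⟩
  have e1 : ((h * g k * h⁻¹ : Matrix.SpecialLinearGroup (Fin r) ℂ) : Matrix (Fin r) (Fin r) ℂ) =
      (h : Matrix (Fin r) (Fin r) ℂ) * (g k : Matrix (Fin r) (Fin r) ℂ) *
        ((h⁻¹ : Matrix.SpecialLinearGroup (Fin r) ℂ) : Matrix (Fin r) (Fin r) ℂ) := rfl
  rw [e1, hh]
  have e2 := basis_toMatrix_mul_linearMap_toMatrix_mul_basis_toMatrix b (Pi.basisFun ℂ (Fin r)) b
    (Pi.basisFun ℂ (Fin r)) (Matrix.toLin' (g k : Matrix (Fin r) (Fin r) ℂ))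
  rw [LinearMap.toMatrix_eq_toMatrix', LinearMap.toMatrix'_toLin'] at e2
  rw [e2, LinearMap.toMatrix_apply]
  exact hb k i j hij

open scoped LaurentPolynomial in
lemma laurent_eq_zero (q : LaurentPolynomial ℂ)
    (h : {t : ℂˣ | LaurentPolynomial.eval₂ (RingHom.id ℂ) t q = 0}.Infinite) : q = 0 := by
  obtain ⟨m, f', hf'⟩ := LaurentPolynomial.exists_T_pow q
  have hroot : f' = 0 := by
    apply Polynomial.eq_zero_of_infinite_isRoot
    have hinj : Set.InjOn (fun t : ℂˣ => (t : ℂ))
        {t : ℂˣ | LaurentPolynomial.eval₂ (RingHom.id ℂ) t q = 0} :=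
      fun a _ b _ hab => Units.ext hab
    refine (h.image hinj).mono ?_
    rintro _ ⟨t, ht, rfl⟩
    have h1 := LaurentPolynomial.eval₂_toLaurent (RingHom.id ℂ) t f'
    rw [hf', map_mul, ht, zero_mul] at h1
    simp only [Set.mem_ofPred_eq, Polynomial.IsRoot.def]
    rw [Polynomial.eval₂_id] at h1
    exact h1.symm
  rw [hroot, map_zero] at hf'
  exact ((LaurentPolynomial.isUnit_T (R := ℂ) m).mul_left_eq_zero).1 hf'.symm

lemma laurent_eval_aeval {σ : Type} (P : MvPolynomial σ ℂ) (pt : σ → LaurentPolynomial ℂ) (t : ℂˣ) :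
    LaurentPolynomial.eval₂ (RingHom.id ℂ) t (MvPolynomial.aeval pt P) =
      MvPolynomial.eval (fun x => LaurentPolynomial.eval₂ (RingHom.id ℂ) t (pt x)) P := by
  rw [MvPolynomial.map_aeval]
  have : (LaurentPolynomial.eval₂ (RingHom.id ℂ) t).comp (algebraMap ℂ (LaurentPolynomial ℂ)) =
      RingHom.id ℂ := by
    ext x
    simp
  rw [this]
  rfl

lemma poly_eval_aeval {σ : Type} (P : MvPolynomial σ ℂ) (pt : σ → Polynomial ℂ) (t : ℂ) :
    Polynomial.eval t (MvPolynomial.aeval pt P) =
      MvPolynomial.eval (fun x => Polynomial.eval t (pt x)) P := by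
  have := MvPolynomial.map_aeval pt (Polynomial.evalRingHom t) P
  simp only [Polynomial.coe_evalRingHom] at this
  rw [this]
  have h2 : (Polynomial.evalRingHom t).comp (algebraMap ℂ (Polynomial ℂ)) = RingHom.id ℂ := by
    ext x
    simp
  rw [h2]
  rfl

/-- evaluation of a polynomial in the matrix entries at a tuple of matrices -/
noncomputable def ev {n r : ℕ} (P : MvPolynomial (Fin n × Fin r × Fin r) ℂ)
    (M : Fin n → Matrix (Fin r) (Fin r) ℂ) : ℂ :=
  MvPolynomial.eval (fun x => M x.1 x.2.1 x.2.2) P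

lemma degenerate {n r : ℕ} (hr : 0 < r) (P : MvPolynomial (Fin n × Fin r × Fin r) ℂ)
    (hinv : ∀ (g : Fin n → Matrix.SpecialLinearGroup (Fin r) ℂ) (h : Matrix.SpecialLinearGroup (Fin r) ℂ),
      (∀ k l, Commute (g k) (g l)) →
      ev P (fun k => ((h * g k * h⁻¹ : Matrix.SpecialLinearGroup (Fin r) ℂ) : Matrix (Fin r) (Fin r) ℂ)) =
        ev P (fun k => (g k : Matrix (Fin r) (Fin r) ℂ)))
    (T : Fin n → Matrix.SpecialLinearGroup (Fin r) ℂ) (hT : ∀ k l, Commute (T k) (T l))
    (htri : ∀ k i j, i < j → (T k : Matrix (Fin r) (Fin r) ℂ) i j = 0) :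
    ev P (fun k => (T k : Matrix (Fin r) (Fin r) ℂ)) =
      ev P (fun k => Matrix.diagonal (fun i => (T k : Matrix (Fin r) (Fin r) ℂ) i i)) := by
  set pt : Fin n × Fin r × Fin r → Polynomial ℂ := fun x =>
    Polynomial.C ((T x.1 : Matrix (Fin r) (Fin r) ℂ) x.2.1 x.2.2) *
      Polynomial.X ^ ((x.2.1 : ℕ) - (x.2.2 : ℕ)) with hpt
  set p : Polynomial ℂ := MvPolynomial.aeval pt P with hp
  have hev : ∀ t : ℂ, t ≠ 0 → p.eval t = ev P (fun k => (T k : Matrix (Fin r) (Fin r) ℂ)) := by
    intro t ht
    obtain ⟨h, hh⟩ := exists_SL_conj hr (Matrix.diagonal (fun i : Fin r => t ^ (i : ℕ)))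
      (Matrix.diagonal (fun i : Fin r => (t ^ (i : ℕ))⁻¹)) (by
        rw [Matrix.diagonal_mul_diagonal, ← Matrix.diagonal_one]
        congr 1
        funext i
        exact mul_inv_cancel₀ (pow_ne_zero _ ht))
    rw [← hinv T h hT, hp, poly_eval_aeval]
    unfold ev
    congr 2
    funext x
    obtain ⟨k, i, j⟩ := x
    have e1 : ((h * T k * h⁻¹ : Matrix.SpecialLinearGroup (Fin r) ℂ) : Matrix (Fin r) (Fin r) ℂ) =
      (h : Matrix (Fin r) (Fin r) ℂ) * (T k : Matrix (Fin r) (Fin r) ℂ) *
        ((h⁻¹ : Matrix.SpecialLinearGroup (Fin r) ℂ) : Matrix (Fin r) (Fin r) ℂ) := rfl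
    simp only [hpt, e1, hh, Polynomial.eval_mul, Polynomial.eval_C, Polynomial.eval_pow,
      Polynomial.eval_X, Matrix.mul_diagonal, Matrix.diagonal_mul]
    rcases lt_or_ge i j with hij | hij
    · rw [htri k i j hij]; simp
    · have hij' : (j : ℕ) ≤ (i : ℕ) := hij
      have : t ^ (i : ℕ) = t ^ ((i : ℕ) - (j : ℕ)) * t ^ (j : ℕ) := by
        rw [← pow_add, Nat.sub_add_cancel hij']
      rw [this]
      field_simp
  have hconst : p = Polynomial.C (ev P (fun k => (T k : Matrix (Fin r) (Fin r) ℂ))) := by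
    rw [← sub_eq_zero]
    apply Polynomial.eq_zero_of_infinite_isRoot
    refine Set.Infinite.mono ?_ (Set.Finite.infinite_compl (Set.finite_singleton (0 : ℂ)))
    intro t ht
    simp only [Set.mem_ofPred_eq, Polynomial.IsRoot.def, Polynomial.eval_sub, Polynomial.eval_C]
    rw [hev t ht, sub_self]
  have h0 : p.eval 0 = ev P (fun k => (T k : Matrix (Fin r) (Fin r) ℂ)) := by
    rw [hconst, Polynomial.eval_C]
  rw [← h0, hp, poly_eval_aeval]
  unfold ev
  congr 2
  funext x
  obtain ⟨k, i, j⟩ := x
  simp only [hpt, Polynomial.eval_mul, Polynomial.eval_C, Polynomial.eval_pow, Polynomial.eval_X]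
  rcases lt_trichotomy i j with hij | hij | hij
  · rw [htri k i j hij, Matrix.diagonal_apply_ne _ hij.ne]; simp
  · subst hij; simp
  · have : (i : ℕ) - (j : ℕ) ≠ 0 := by
      have : (j : ℕ) < (i : ℕ) := hij
      omega
    rw [zero_pow this, Matrix.diagonal_apply_ne _ hij.ne']; simp

open Classical in
lemma torus_dense {n r : ℕ} (P : MvPolynomial (Fin n × Fin r × Fin r) ℂ) (U : Subgroup ℂˣ)
    (hU : (U : Set ℂˣ).Infinite)
    (hvan : ∀ z : Fin n → Fin r → ℂˣ, (∀ k i, z k i ∈ U) → (∀ k, ∏ i, z k i = 1) →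
      ev P (fun k => Matrix.diagonal (fun i => (z k i : ℂ))) = 0) :
    ∀ z : Fin n → Fin r → ℂˣ, (∀ k, ∏ i, z k i = 1) →
      ev P (fun k => Matrix.diagonal (fun i => (z k i : ℂ))) = 0 := by
  have main : ∀ (m : ℕ) (z : Fin n → Fin r → ℂˣ),
      (Finset.univ.filter (fun x : Fin n × Fin r => z x.1 x.2 ∉ U)).card ≤ m →
      (∀ k, ∏ i, z k i = 1) → ev P (fun k => Matrix.diagonal (fun i => (z k i : ℂ))) = 0 := by
    intro m
    induction m with
    | zero =>
      intro z hz hprod
      apply hvan z _ hprod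
      intro k i
      by_contra hki
      have : (k, i) ∈ Finset.univ.filter (fun x : Fin n × Fin r => z x.1 x.2 ∉ U) := by
        simp [hki]
      rw [Finset.card_eq_zero.1 (Nat.le_zero.1 hz)] at this
      simp at this
    | succ m ih =>
      intro z hz hprod
      by_cases hall : ∀ k i, z k i ∈ U
      · exact hvan z hall hprod
      · simp only [not_forall] at hall
        obtain ⟨k, i, hki⟩ := hall
        -- another bad coordinate in the same row
        obtain ⟨i', hi'i, hki'⟩ : ∃ i', i' ≠ i ∧ z k i' ∉ U := by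
          by_contra hcon
          have hcon' : ∀ i', i' ≠ i → z k i' ∈ U := by
            intro i' hne
            by_contra h
            exact hcon ⟨i', hne, h⟩
          have h1 : z k i * ∏ j ∈ Finset.univ.erase i, z k j = 1 := by
            rw [Finset.mul_prod_erase _ _ (Finset.mem_univ i)]; exact hprod k
          have h2 : ∏ j ∈ Finset.univ.erase i, z k j ∈ U :=
            Subgroup.prod_mem U (fun j hj => hcon' j (Finset.ne_of_mem_erase hj))
          have h3 : z k i = (∏ j ∈ Finset.univ.erase i, z k j)⁻¹ := eq_inv_of_mul_eq_one_left h1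
          exact hki (h3 ▸ U.inv_mem h2)
        set pert : ℂˣ → Fin n → Fin r → ℂˣ := fun s k'' i'' =>
          if k'' = k then (if i'' = i then s else if i'' = i' then s⁻¹ else 1) else 1 with hpert
        set zs : ℂˣ → Fin n → Fin r → ℂˣ := fun s k'' i'' => z k'' i'' * pert s k'' i'' with hzs
        have hprods : ∀ s k'', ∏ i'', zs s k'' i'' = 1 := by
          intro s k''
          simp only [hzs, Finset.prod_mul_distrib, hprod k'', one_mul]
          by_cases hk : k'' = k
          · simp only [hpert, hk, if_true]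
            rw [Finset.prod_eq_mul i i' hi'i.symm]
            · simp [hi'i]
            · intro c _ hc
              simp [hc.1, hc.2]
            · intro h; exact absurd (Finset.mem_univ _) h
            · intro h; exact absurd (Finset.mem_univ _) h
          · simp [hpert, hk]
        set S : Set ℂˣ := {s | z k i * s ∈ U} with hS
        have hSinf : S.Infinite := by
          have hinj : Set.InjOn (fun u : ℂˣ => (z k i)⁻¹ * u) (U : Set ℂˣ) :=
            fun a _ b _ hab => mul_left_cancel hab
          refine (hU.image hinj).mono ?_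
          rintro _ ⟨u, hu, rfl⟩
          simp only [hS, Set.mem_ofPred_eq, mul_inv_cancel_left]
          exact hu
        have hzero : ∀ s ∈ S, ev P (fun k'' => Matrix.diagonal (fun i'' => (zs s k'' i'' : ℂ))) = 0 := by
          intro s hs
          apply ih (zs s) _ (hprods s)
          have hsub : Finset.univ.filter (fun x : Fin n × Fin r => zs s x.1 x.2 ∉ U) ⊆
              (Finset.univ.filter (fun x : Fin n × Fin r => z x.1 x.2 ∉ U)).erase (k, i) := by
            intro x hx
            obtain ⟨k'', i''⟩ := x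
            simp only [Finset.mem_filter, Finset.mem_univ, true_and] at hx
            simp only [Finset.mem_erase, Finset.mem_filter, Finset.mem_univ, true_and, ne_eq,
              Prod.mk.injEq, not_and]
            by_cases hk : k'' = k
            · subst hk
              by_cases hi : i'' = i
              · subst hi
                exfalso
                apply hx
                simp only [hzs, hpert, if_true]
                exact hs
              · refine ⟨fun _ => hi, ?_⟩
                by_cases hi2 : i'' = i'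
                · subst hi2; exact hki'
                · simpa [hzs, hpert, hi, hi2] using hx
            · refine ⟨fun h => absurd h hk, ?_⟩
              simpa [hzs, hpert, hk] using hx
          have hmem : (k, i) ∈ Finset.univ.filter (fun x : Fin n × Fin r => z x.1 x.2 ∉ U) := by
            simp [hki]
          have hc := Finset.card_le_card hsub
          rw [Finset.card_erase_of_mem hmem] at hc
          omega
        set pt : Fin n × Fin r × Fin r → LaurentPolynomial ℂ := fun x =>
          if x.2.1 = x.2.2 then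
            LaurentPolynomial.C (z x.1 x.2.1 : ℂ) *
              (if x.1 = k then (if x.2.1 = i then LaurentPolynomial.T 1
                else if x.2.1 = i' then LaurentPolynomial.T (-1) else 1) else 1)
          else 0 with hpt
        have hptev : ∀ s : ℂˣ, LaurentPolynomial.eval₂ (RingHom.id ℂ) s (MvPolynomial.aeval pt P) =
            ev P (fun k'' => Matrix.diagonal (fun i'' => (zs s k'' i'' : ℂ))) := by
          intro s
          rw [laurent_eval_aeval]
          unfold ev
          congr 2
          funext x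
          obtain ⟨k'', a, b⟩ := x
          by_cases hab : a = b
          · subst hab
            simp only [hpt, if_true, Matrix.diagonal_apply_eq, hzs, hpert, map_mul,
              LaurentPolynomial.eval₂_C, RingHom.id_apply, Units.val_mul]
            congr 1
            by_cases hk : k'' = k
            · by_cases hi : a = i
              · simp [hk, hi]
              · by_cases hi2 : a = i'
                · simp [hk, hi2, hi'i]
                · simp [hk, hi, hi2]
            · simp [hk]
          · simp [hpt, hab]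
        have hq : MvPolynomial.aeval pt P = 0 := by
          apply laurent_eq_zero
          refine hSinf.mono ?_
          intro s hs
          simp only [Set.mem_ofPred_eq]
          rw [hptev s, hzero s hs]
        have h1 := hptev 1
        rw [hq, map_zero] at h1
        have hz1 : zs 1 = z := by
          funext k'' i''
          simp only [hzs, hpert]
          split_ifs <;> simp
        rw [hz1] at h1
        exact h1.symm
  intro z hz
  exact main _ z le_rfl hz

/-- the real quadratic field `ℚ(√2)` inside `ℂ` -/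
noncomputable def sqrtTwo : ℂ := ((Real.sqrt 2 : ℝ) : ℂ)

lemma sqrtTwo_sq : sqrtTwo * sqrtTwo = 2 := by
  unfold sqrtTwo
  rw [← Complex.ofReal_mul, Real.mul_self_sqrt (by norm_num)]
  norm_num

lemma isIntegral_sqrtTwo : IsIntegral ℤ sqrtTwo := by
  refine ⟨Polynomial.X ^ 2 - Polynomial.C 2, Polynomial.monic_X_pow_sub_C 2 (by norm_num), ?_⟩
  simp [pow_two, sqrtTwo_sq]

/-- units of the ring of integers of a subfield of `ℂ`, as a subgroup of `ℂˣ` -/
def integralUnits (L : IntermediateField ℚ ℂ) : Subgroup ℂˣ where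
  carrier := {w | (w : ℂ) ∈ L ∧ IsIntegral ℤ (w : ℂ) ∧ IsIntegral ℤ ((w⁻¹ : ℂˣ) : ℂ)}
  mul_mem' := by
    rintro a b ⟨ha1, ha2, ha3⟩ ⟨hb1, hb2, hb3⟩
    refine ⟨by simpa using L.mul_mem ha1 hb1, by simpa using ha2.mul hb2, ?_⟩
    rw [_root_.mul_inv_rev]
    simpa using hb3.mul ha3
  one_mem' := ⟨by simp, by simpa using isIntegral_one, by simpa using isIntegral_one⟩
  inv_mem' := by
    rintro a ⟨ha1, ha2, ha3⟩
    refine ⟨by simpa using L.inv_mem ha1, ha3, by simpa using ha2⟩

noncomputable def fundUnit : ℂˣ :=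
  ⟨1 + sqrtTwo, -1 + sqrtTwo, by linear_combination sqrtTwo_sq, by linear_combination sqrtTwo_sq⟩

lemma fundUnit_not_finOrder : ¬ IsOfFinOrder fundUnit := by
  intro h
  have h1 : IsOfFinOrder (fundUnit : ℂ) := Units.isOfFinOrder_val.2 h
  have h2 := h1.norm_eq_one
  have h3 : (fundUnit : ℂ) = ((1 + Real.sqrt 2 : ℝ) : ℂ) := by
    simp [fundUnit, sqrtTwo]
  rw [h3, Complex.norm_real, Real.norm_eq_abs, abs_of_pos (by positivity)] at h2
  have : 0 < Real.sqrt 2 := by positivity
  linarith

lemma infinite_integralUnits (L : IntermediateField ℚ ℂ) (hL : sqrtTwo ∈ L) :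
    ((integralUnits L : Subgroup ℂˣ) : Set ℂˣ).Infinite := by
  have hmem : fundUnit ∈ integralUnits L := by
    refine ⟨?_, ?_, ?_⟩
    · exact L.add_mem L.one_mem hL
    · exact isIntegral_one.add isIntegral_sqrtTwo
    · exact (isIntegral_one.neg).add isIntegral_sqrtTwo
  have hle : Subgroup.zpowers fundUnit ≤ integralUnits L := by
    rw [Subgroup.zpowers_le]; exact hmem
  have hinf : ((Subgroup.zpowers fundUnit : Subgroup ℂˣ) : Set ℂˣ).Infinite :=
    infinite_zpowers.2 fundUnit_not_finOrder
  exact hinf.mono hle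

/-- Special case of Q1 for fundamental group `ℤ^n` (abelian varieties, algebraic tori), all ranks `r`,
no boundary conditions.  The points of `Rep_r` for the standard presentation of `ℤ^n` are the
commuting `n`-tuples in `SL_r`.  With `L = ℚ(√2)`: every polynomial function of the matrix entries
which is invariant under simultaneous conjugation on `Rep_r(ℂ)` and vanishes at all representations
with values in `SL_r(O_L)` vanishes on all of `Rep_r(ℂ)`; i.e. the `O_L`-points are Zariski dense in
the character variety. -/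
theorem result (n r : ℕ) :
    ∃ L : IntermediateField ℚ ℂ, FiniteDimensional ℚ L ∧
      ∀ P : MvPolynomial (Fin n × Fin r × Fin r) ℂ,
        (∀ (g : Fin n → Matrix.SpecialLinearGroup (Fin r) ℂ)
            (h : Matrix.SpecialLinearGroup (Fin r) ℂ), (∀ k l, Commute (g k) (g l)) →
          MvPolynomial.eval (fun x => ((h * g x.1 * h⁻¹ : Matrix.SpecialLinearGroup (Fin r) ℂ) :
              Matrix (Fin r) (Fin r) ℂ) x.2.1 x.2.2) P =
            MvPolynomial.eval (fun x => (g x.1 : Matrix (Fin r) (Fin r) ℂ) x.2.1 x.2.2) P) →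
        (∀ g : Fin n → Matrix.SpecialLinearGroup (Fin r) ℂ, (∀ k l, Commute (g k) (g l)) →
          (∀ k i j, (g k : Matrix (Fin r) (Fin r) ℂ) i j ∈ L ∧
            IsIntegral ℤ ((g k : Matrix (Fin r) (Fin r) ℂ) i j)) →
          MvPolynomial.eval (fun x => (g x.1 : Matrix (Fin r) (Fin r) ℂ) x.2.1 x.2.2) P = 0) →
        ∀ g : Fin n → Matrix.SpecialLinearGroup (Fin r) ℂ, (∀ k l, Commute (g k) (g l)) →
          MvPolynomial.eval (fun x => (g x.1 : Matrix (Fin r) (Fin r) ℂ) x.2.1 x.2.2) P = 0 := by
  refine ⟨IntermediateField.adjoin ℚ {sqrtTwo},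
    IntermediateField.adjoin.finiteDimensional (isIntegral_sqrtTwo.tower_top), ?_⟩
  set L := IntermediateField.adjoin ℚ {sqrtTwo} with hL
  have hsL : sqrtTwo ∈ L := IntermediateField.mem_adjoin_simple_self ℚ sqrtTwo
  intro P hinv hint g hg
  rcases Nat.eq_zero_or_pos r with hr | hr
  · subst hr
    exact hint g hg (fun k i => i.elim0)
  · obtain ⟨h, hh⟩ := exists_SL_triangular hr g hg
    set T : Fin n → Matrix.SpecialLinearGroup (Fin r) ℂ := fun k => h * g k * h⁻¹ with hT
    have hTc : ∀ k l, Commute (T k) (T l) := by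
      intro k l
      have := (hg k l).eq
      show h * g k * h⁻¹ * (h * g l * h⁻¹) = h * g l * h⁻¹ * (h * g k * h⁻¹)
      calc h * g k * h⁻¹ * (h * g l * h⁻¹) = h * (g k * g l) * h⁻¹ := by group
        _ = h * (g l * g k) * h⁻¹ := by rw [this]
        _ = h * g l * h⁻¹ * (h * g k * h⁻¹) := by group
    have e1 := hinv g h hg
    have e2 := degenerate hr P hinv T hTc hh
    have hdiagprod : ∀ k, ∏ i, (T k : Matrix (Fin r) (Fin r) ℂ) i i = 1 := by
      intro k
      rw [← Matrix.det_of_isLowerTriangular (T k : Matrix (Fin r) (Fin r) ℂ) (fun i j hij => hh k i j hij)]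
      exact (T k).2
    have hne : ∀ k i, (T k : Matrix (Fin r) (Fin r) ℂ) i i ≠ 0 := by
      intro k i h0
      have := hdiagprod k
      have h00 : ∏ i, (T k : Matrix (Fin r) (Fin r) ℂ) i i = 0 :=
        Finset.prod_eq_zero (f := fun i => (T k : Matrix (Fin r) (Fin r) ℂ) i i)
          (Finset.mem_univ i) h0
      rw [h00] at this
      exact zero_ne_one this
    have e3 := torus_dense P (integralUnits L) (infinite_integralUnits L hsL) (by
      intro z hz hprod
      have hdet : ∀ k, (Matrix.diagonal (fun i => (z k i : ℂ))).det = 1 := by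
        intro k
        rw [Matrix.det_diagonal]
        have := congrArg (fun w : ℂˣ => (w : ℂ)) (hprod k)
        simpa using this
      refine hint (fun k => ⟨Matrix.diagonal (fun i => (z k i : ℂ)), hdet k⟩) ?_ ?_
      · intro k l
        apply Subtype.ext
        show Matrix.diagonal _ * Matrix.diagonal _ = Matrix.diagonal _ * Matrix.diagonal _
        rw [Matrix.diagonal_mul_diagonal, Matrix.diagonal_mul_diagonal]
        congr 1
        funext i
        exact mul_comm _ _
      · intro k i j
        show Matrix.diagonal (fun i => (z k i : ℂ)) i j ∈ L ∧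
          IsIntegral ℤ (Matrix.diagonal (fun i => (z k i : ℂ)) i j)
        by_cases hij : i = j
        · subst hij
          rw [Matrix.diagonal_apply_eq]
          exact ⟨(hz k i).1, (hz k i).2.1⟩
        · rw [Matrix.diagonal_apply_ne _ hij]
          exact ⟨L.zero_mem, isIntegral_zero⟩)
      (fun k i => Units.mk0 _ (hne k i)) (by
        intro k
        apply Units.ext
        simpa using hdiagprod k)
    have e4 : ev P (fun k => (g k : Matrix (Fin r) (Fin r) ℂ)) = 0 := by
      have e1' : ev P (fun k => (T k : Matrix (Fin r) (Fin r) ℂ)) =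
          ev P (fun k => (g k : Matrix (Fin r) (Fin r) ℂ)) := e1
      rw [← e1', e2]
      exact e3
    exact e4

end Vale.Agent.Results.P002.AbelianPi1
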